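import Vale.Agent.P032.H532.Split
import Vale.Agent.P032.H326.Track

/-!
# P032: decomposition of the simultaneous changes of columns and rays (helper532's `split` for
helper326's relation `WEv`)

`evN_mix` : the rules `EvN` go to every legal mixture of the two columns.  Places of a state
`(M, h)`: the slots `some s` and the positions of the five rays `none`.  `wsplit` : a transitive and
reflexive relation which holds for the tight events `WEv` holds for all events; `TightW.cases` : a
tight event changes one slot and no ray, or rays only, or every changed place must change before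
another one and after another one.
-/

noncomputable section

namespace Vale.Agent.P032.H679

open Vale.Agent.P032.H93 Vale.Agent.P032.H326 Vale.Agent.P032.H532

variable {κ Λ : Type} {D : κ → κ → Prop} {K : κ → Λ → Finset (Fin 6)} {C : κ → Finset (Fin 6)}
  {k0 : κ} {P : κ × Fin 6 → Finset (Fin 6)}

/-- **the rules for all simultaneous changes go to legal mixtures** -/
theorem evN_mix {h h' m : κ × Fin 6 → Λ} (H : EvN D K C P h h') (hm : ∀ s, m s = h s ∨ m s = h' s)
    (hl : LgN D K C m) : EvN D K C P h m ∧ EvN D K C P m h' := by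
  constructor
  · refine ⟨H.leg, hl, fun s => ?_, fun s t hst hs ht => ?_, H.nsub⟩
    · rcases hm s with e | e <;> rw [e]
      · exact (Finset.union_subset Finset.subset_union_left Finset.subset_union_left).trans
          (H.pal s)
      · exact H.pal s
    · rcases hm t with e | e
      · rw [e]; exact Or.inl (H.leg.1 s t hst)
      · rcases hm s with e2 | e2
        · rw [e2]; exact Or.inr (H.leg.1 s t hst)
        · rw [e, e2]; exact H.swap s t hst hs ht
  · refine ⟨hl, H.leg', fun s => ?_, fun s t hst hs ht => ?_, H.nsub⟩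
    · rcases hm s with e | e <;> rw [e]
      · exact H.pal s
      · exact (Finset.union_subset Finset.subset_union_right Finset.subset_union_right).trans
          (H.pal s)
    · rcases hm s with e | e
      · rcases hm t with e2 | e2
        · rw [e, e2]; exact H.swap s t hst hs ht
        · rw [e2]; exact Or.inr (H.leg'.1 s t hst)
      · rw [e]; exact Or.inl (H.leg'.1 s t hst)

/-! ### The binary rules -/

/-- the values: letters and positions of the five rays -/
abbrev Vl (Λ : Type) : Type := (Fin 5 → ℤ) ⊕ Λ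

/-- the rule for two places -/
def RW (D : κ → κ → Prop) (K : κ → Λ → Finset (Fin 6)) (C : κ → Finset (Fin 6)) (k0 : κ) :
    Option (κ × Fin 6) → Option (κ × Fin 6) → Vl Λ → Vl Λ → Prop
  | some s, some t, Sum.inr l, Sum.inr l' => (AdjD D s t → Disjoint (K s.1 l) (K t.1 l')) ∧
      (t = (s.1, s.2 + 3) → 2 ≤ (C s.1 \ (K s.1 l ∪ K s.1 l')).card)
  | some s, none, Sum.inr l, Sum.inl M => s.1 = k0 → WL (fun i => M i + (s.2.val : ℤ)) (K k0 l)
  | none, none, Sum.inl M, Sum.inl _ => WOK M
  | _, _, _, _ => True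

/-- the state as a configuration -/
def enc (M : Fin 5 → ℤ) (h : κ × Fin 6 → Λ) : Option (κ × Fin 6) → Vl Λ
  | none => Sum.inl M
  | some s => Sum.inr (h s)

@[simp] theorem enc_none (M : Fin 5 → ℤ) (h : κ × Fin 6 → Λ) : enc M h none = Sum.inl M := rfl

@[simp] theorem enc_some (M : Fin 5 → ℤ) (h : κ × Fin 6 → Λ) (s : κ × Fin 6) :
    enc M h (some s) = Sum.inr (h s) := rfl

theorem enc_inj {M M' : Fin 5 → ℤ} {h h' : κ × Fin 6 → Λ} (e : enc M h = enc M' h') :
    M = M' ∧ h = h' := by
  constructor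
  · have := congrFun e none
    simpa using this
  · funext s
    have := congrFun e (some s)
    simpa using this

theorem lgl_enc {M : Fin 5 → ℤ} {h : κ × Fin 6 → Λ} :
    Lgl (RW D K C k0) (enc M h) ↔ LgN D K C h ∧ WLc K k0 M h ∧ WOK M := by
  constructor
  · intro H
    refine ⟨⟨fun s t hst => (H (some s) (some t)).1 hst, fun c j => ?_⟩, fun j => ?_, H none none⟩
    · exact (H (some (c, j)) (some (c, j + 3))).2 rfl
    · exact H (some (k0, j)) none rfl
  · rintro ⟨⟨h1, h2⟩, h3, h4⟩ i j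
    cases i with
    | none =>
      cases j with
      | none => exact h4
      | some t => trivial
    | some s =>
      cases j with
      | none =>
        rintro rfl
        exact h3 s.2
      | some t =>
        refine ⟨h1 s t, ?_⟩
        rintro rfl
        exact h2 s.1 s.2

/-- a legal mixture of two states is a state -/
theorem mix_enc {M M' : Fin 5 → ℤ} {h h' : κ × Fin 6 → Λ} {g : Option (κ × Fin 6) → Vl Λ}
    (hg : Mix (enc M h) (enc M' h') g) : ∃ M₁ h₁, g = enc M₁ h₁ ∧ (M₁ = M ∨ M₁ = M') ∧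
      ∀ s, h₁ s = h s ∨ h₁ s = h' s := by
  classical
  refine ⟨if g none = Sum.inl M then M else M', fun s => if g (some s) = Sum.inr (h s) then h s
    else h' s, ?_, ?_, fun s => ?_⟩
  · funext i
    cases i with
    | none =>
      by_cases h0 : g none = Sum.inl M
      · simp [h0]
      · rcases hg none with h1 | h1
        · exact absurd h1 h0
        · rw [enc_none, if_neg h0]; exact h1
    | some s =>
      by_cases h0 : g (some s) = Sum.inr (h s)
      · simp [h0]
      · rcases hg (some s) with h1 | h1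
        · exact absurd h1 h0
        · rw [enc_some, if_neg h0]; exact h1
  · split_ifs
    · exact Or.inl rfl
    · exact Or.inr rfl
  · dsimp only
    split_ifs
    · exact Or.inl rfl
    · exact Or.inr rfl

/-- the changed places of the event depend on each other -/
def TightW (D : κ → κ → Prop) (K : κ → Λ → Finset (Fin 6)) (C : κ → Finset (Fin 6)) (k0 : κ)
    (M M' : Fin 5 → ℤ) (h h' : κ × Fin 6 → Λ) : Prop :=
  Tight (RW D K C k0) (enc M h) (enc M' h')

/-- **Decomposition of the events of a 5-centre with its rays and the letters of all circles.** -/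
theorem wsplit [Finite κ]
    {Q : (Fin 5 → ℤ) × (κ × Fin 6 → Λ) → (Fin 5 → ℤ) × (κ × Fin 6 → Λ) → Prop}
    (hr : ∀ x, Q x x) (ht : ∀ x y z, Q x y → Q y z → Q x z)
    (hT : ∀ M M' h h', WEv D K C k0 P M M' h h' → TightW D K C k0 M M' h h' → Q (M, h) (M', h'))
    {M M' : Fin 5 → ℤ} {h h' : κ × Fin 6 → Λ} (H : WEv D K C k0 P M M' h h') :
    Q (M, h) (M', h') := by
  let Ev : (Option (κ × Fin 6) → Vl Λ) → (Option (κ × Fin 6) → Vl Λ) → Prop := fun g g' =>
    ∃ M M' h h', g = enc M h ∧ g' = enc M' h' ∧ WEv D K C k0 P M M' h h'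
  let Qe : (Option (κ × Fin 6) → Vl Λ) → (Option (κ × Fin 6) → Vl Λ) → Prop := fun g g' =>
    g = g' ∨ ∃ M M' h h', g = enc M h ∧ g' = enc M' h' ∧ Q (M, h) (M', h')
  have key : Qe (enc M h) (enc M' h') := by
    refine split (R := RW D K C k0) (Ev := Ev) (Q := Qe) ?_ ?_ (fun g => Or.inl rfl) ?_ ?_
      ⟨M, M', h, h', rfl, rfl, H⟩
    · rintro g g' ⟨M, M', h, h', rfl, rfl, H⟩
      exact ⟨lgl_enc.2 ⟨H.ev.leg, H.wl, H.ok⟩, lgl_enc.2 ⟨H.ev.leg', H.wl', H.ok'⟩⟩
    · rintro g g' m ⟨M, M', h, h', rfl, rfl, H⟩ hmix hml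
      obtain ⟨M₁, h₁, rfl, hM, hh⟩ := mix_enc hmix
      obtain ⟨l1, l2, l3⟩ := lgl_enc.1 hml
      obtain ⟨e1, e2⟩ := evN_mix H.ev hh l1
      refine ⟨⟨M, M₁, h, h₁, rfl, rfl, e1, ?_, H.wl, l2, H.ok, l3⟩,
        ⟨M₁, M', h₁, h', rfl, rfl, e2, ?_, l2, H.wl', l3, H.ok'⟩⟩
      · rcases hM with rfl | rfl
        · exact fun i => ⟨le_rfl, by omega⟩
        · exact H.crs
      · rcases hM with rfl | rfl
        · exact H.crs
        · exact fun i => ⟨le_rfl, by omega⟩
    · rintro a b c (rfl | ⟨M1, M2, h1, h2, rfl, rfl, q1⟩) hbc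
      · exact hbc
      · rcases hbc with rfl | ⟨M3, M4, h3, h4, e, rfl, q2⟩
        · exact Or.inr ⟨M1, M2, h1, h2, rfl, rfl, q1⟩
        · obtain ⟨rfl, rfl⟩ := enc_inj e
          exact Or.inr ⟨M1, M4, h1, h4, rfl, rfl, ht _ _ _ q1 q2⟩
    · rintro g g' ⟨M, M', h, h', rfl, rfl, H⟩ hT'
      exact Or.inr ⟨M, M', h, h', rfl, rfl, hT M M' h h' H hT'⟩
  rcases key with e | ⟨M1, M2, h1, h2, e1, e2, q⟩
  · obtain ⟨rfl, rfl⟩ := enc_inj e
    exact hr _
  · obtain ⟨rfl, rfl⟩ := enc_inj e1
    obtain ⟨rfl, rfl⟩ := enc_inj e2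
    exact q

/-! ### Tight events -/

/-- the slot `s` must change before the slot `t` -/
def PreS (D : κ → κ → Prop) (K : κ → Λ → Finset (Fin 6)) (C : κ → Finset (Fin 6))
    (h h' : κ × Fin 6 → Λ) (s t : κ × Fin 6) : Prop :=
  h s ≠ h' s ∧ h t ≠ h' t ∧ s ≠ t ∧
    (((AdjD D s t ∨ AdjD D t s) ∧ ¬ Disjoint (K s.1 (h s)) (K t.1 (h' t))) ∨
      (t.1 = s.1 ∧ t.2 = s.2 + 3 ∧ (C s.1 \ (K s.1 (h s) ∪ K s.1 (h' t))).card < 2))

theorem add_three (j : Fin 6) : j + 3 + 3 = j := by revert j; decide

/-- `must change before` for two slots -/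
theorem pre_some {M M' : Fin 5 → ℤ} {h h' : κ × Fin 6 → Λ} {s t : κ × Fin 6}
    (H : Pre (RW D K C k0) (enc M h) (enc M' h') (some s) (some t)) : PreS D K C h h' s t := by
  obtain ⟨h1, h2, h3, h4⟩ := H
  have h1' : h s ≠ h' s := fun e => h1 (by simp [e])
  have h2' : h t ≠ h' t := fun e => h2 (by simp [e])
  have h3' : s ≠ t := fun e => h3 (by rw [e])
  refine ⟨h1', h2', h3', ?_⟩
  rcases h4 with h4 | h4
  · by_cases c1 : AdjD D s t → Disjoint (K s.1 (h s)) (K t.1 (h' t))
    · right
      have c2 : ¬ (t = (s.1, s.2 + 3) → 2 ≤ (C s.1 \ (K s.1 (h s) ∪ K s.1 (h' t))).card) :=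
        fun c2 => h4 ⟨c1, c2⟩
      push Not at c2
      exact ⟨by rw [c2.1], by rw [c2.1], c2.2⟩
    · push Not at c1
      exact Or.inl ⟨Or.inl c1.1, c1.2⟩
  · by_cases c1 : AdjD D t s → Disjoint (K t.1 (h' t)) (K s.1 (h s))
    · right
      have c2 : ¬ (s = (t.1, t.2 + 3) → 2 ≤ (C t.1 \ (K t.1 (h' t) ∪ K t.1 (h s))).card) :=
        fun c2 => h4 ⟨c1, c2⟩
      push Not at c2
      obtain ⟨e, c2⟩ := c2
      have e1 : t.1 = s.1 := by rw [e]
      have e2 : t.2 = s.2 + 3 := by rw [e]; exact (add_three _).symm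
      refine ⟨e1, e2, ?_⟩
      rw [e1, Finset.union_comm] at c2
      exact c2
    · push Not at c1
      exact Or.inl ⟨Or.inr c1.1, fun hd => c1.2 hd.symm⟩

/-- a slot must change before the rays -/
theorem pre_ray {M M' : Fin 5 → ℤ} {h h' : κ × Fin 6 → Λ} {s : κ × Fin 6}
    (H : Pre (RW D K C k0) (enc M h) (enc M' h') (some s) none) :
    h s ≠ h' s ∧ M ≠ M' ∧ s.1 = k0 ∧ ¬ WL (fun i => M' i + (s.2.val : ℤ)) (K k0 (h s)) := by
  obtain ⟨h1, h2, h3, h4⟩ := H
  refine ⟨fun e => h1 (by simp [e]), fun e => h2 (by simp [e]), ?_⟩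
  rcases h4 with h4 | h4
  · have h5 : ¬ (s.1 = k0 → WL (fun i => M' i + (s.2.val : ℤ)) (K k0 (h s))) := h4
    push Not at h5
    exact h5
  · exact absurd trivial h4

/-- the rays must change before a slot -/
theorem ray_pre {M M' : Fin 5 → ℤ} {h h' : κ × Fin 6 → Λ} {s : κ × Fin 6}
    (H : Pre (RW D K C k0) (enc M h) (enc M' h') none (some s)) :
    h s ≠ h' s ∧ M ≠ M' ∧ s.1 = k0 ∧ ¬ WL (fun i => M i + (s.2.val : ℤ)) (K k0 (h' s)) := by
  obtain ⟨h1, h2, h3, h4⟩ := H
  refine ⟨fun e => h2 (by simp [e]), fun e => h1 (by simp [e]), ?_⟩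
  rcases h4 with h4 | h4
  · exact absurd trivial h4
  · have h5 : ¬ (s.1 = k0 → WL (fun i => M i + (s.2.val : ℤ)) (K k0 (h' s))) := h4
    push Not at h5
    exact h5

/-- **the tight events**: one slot and no ray; rays and no slot; or every changed slot must change
before a slot or the rays and after a slot or the rays, and if rays change, a slot of the centre must
change before them and one after them -/
theorem TightW.cases {M M' : Fin 5 → ℤ} {h h' : κ × Fin 6 → Λ} (H : TightW D K C k0 M M' h h') :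
    (M = M' ∧ ∃ s, h s ≠ h' s ∧ ∀ t, t ≠ s → h t = h' t) ∨ (M ≠ M' ∧ h = h') ∨
    ((∀ s, h s ≠ h' s →
      ((∃ t, PreS D K C h h' t s) ∨
        (M ≠ M' ∧ s.1 = k0 ∧ ¬ WL (fun i => M i + (s.2.val : ℤ)) (K k0 (h' s)))) ∧
      ((∃ t, PreS D K C h h' s t) ∨
        (M ≠ M' ∧ s.1 = k0 ∧ ¬ WL (fun i => M' i + (s.2.val : ℤ)) (K k0 (h s))))) ∧
      (M ≠ M' → (∃ j, h (k0, j) ≠ h' (k0, j) ∧
          ¬ WL (fun i => M' i + (j.val : ℤ)) (K k0 (h (k0, j)))) ∧
        ∃ j, h (k0, j) ≠ h' (k0, j) ∧ ¬ WL (fun i => M i + (j.val : ℤ)) (K k0 (h' (k0, j))))) := by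
  rcases Tight.single_or H with ⟨i, hi, hj⟩ | hall
  · cases i with
    | none =>
      refine Or.inr (Or.inl ⟨fun e => hi (by simp [e]), funext fun s => ?_⟩)
      have := hj (some s) (by simp)
      simpa using this
    | some s =>
      refine Or.inl ⟨?_, s, fun e => hi (by simp [e]), fun t hts => ?_⟩
      · have := hj none (by simp)
        simpa using this
      · have := hj (some t) (by simpa using hts)
        simpa using this
  · refine Or.inr (Or.inr ⟨fun s hs => ?_, fun hM => ?_⟩)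
    · obtain ⟨⟨j, hj⟩, ⟨j', hj'⟩⟩ := hall (some s) (by simpa using hs)
      constructor
      · cases j with
        | none => exact Or.inr (ray_pre hj).2
        | some t => exact Or.inl ⟨t, pre_some hj⟩
      · cases j' with
        | none => exact Or.inr (pre_ray hj').2
        | some t => exact Or.inl ⟨t, pre_some hj'⟩
    · obtain ⟨⟨j, hj⟩, ⟨j', hj'⟩⟩ := hall none (by simpa using hM)
      constructor
      · cases j with
        | none => exact absurd rfl hj.2.2.1
        | some t =>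
          obtain ⟨h1, -, h3, h4⟩ := pre_ray hj
          obtain ⟨c, l⟩ := t
          obtain rfl : c = k0 := h3
          exact ⟨l, h1, h4⟩
      · cases j' with
        | none => exact absurd rfl hj'.2.2.1
        | some t =>
          obtain ⟨h1, -, h3, h4⟩ := ray_pre hj'
          obtain ⟨c, l⟩ := t
          obtain rfl : c = k0 := h3
          exact ⟨l, h1, h4⟩

end Vale.Agent.P032.H679

end
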